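import Mathlib

namespace Vale.Agent.Results.P124.A_DifferentiablePoint

open Filter Topology Metric Set

section core

variable {X : Type*} {Y : Type*} [NormedAddCommGroup X] [NormedSpace ℝ X]
  [NormedAddCommGroup Y] [NormedSpace ℝ Y]

lemma line_deriv {f : X → Y} {A : X →L[ℝ] Y} {x₀ : X} (hd : HasFDerivAt f A x₀) (h : X) :
    Tendsto (fun t : ℝ => t⁻¹ • (f (x₀ + t • h) - f x₀)) (𝓝[≠] 0) (𝓝 (A h)) := by
  have hline : HasDerivAt (fun t : ℝ => f (x₀ + t • h)) (A h) 0 := by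
    have h1 : HasDerivAt (fun t : ℝ => x₀ + t • h) h 0 := by
      simpa using ((hasDerivAt_id (0 : ℝ)).smul_const h).const_add x₀
    have h2 : HasFDerivAt f A (x₀ + (0 : ℝ) • h) := by simpa using hd
    exact h2.comp_hasDerivAt (0 : ℝ) h1
  have hlim := hline.tendsto_slope_zero
  simpa using hlim

/-- The derivative of a map that expands distances by `c` expands norms by `c`. -/
lemma deriv_lower {f : X → Y} {A : X →L[ℝ] Y} {x₀ : X} {c : ℝ}
    (hlow : ∀ x x' : X, c * ‖x - x'‖ ≤ ‖f x - f x'‖)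
    (hd : HasFDerivAt f A x₀) (h : X) : c * ‖h‖ ≤ ‖A h‖ := by
  refine ge_of_tendsto (line_deriv hd h).norm ?_
  filter_upwards [self_mem_nhdsWithin] with t ht
  have ht0 : t ≠ 0 := ht
  have key := hlow (x₀ + t • h) x₀
  have e : x₀ + t • h - x₀ = t • h := by simp
  rw [e, norm_smul, Real.norm_eq_abs] at key
  have habs : 0 < |t| := abs_pos.mpr ht0
  rw [norm_smul, norm_inv, Real.norm_eq_abs, inv_mul_eq_div, le_div_iff₀ habs]
  linarith

/-- The derivative of a `C`-Lipschitz map has norm at most `C`. -/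
lemma deriv_upper {f : X → Y} {A : X →L[ℝ] Y} {x₀ : X} {C : ℝ}
    (hup : ∀ x x' : X, ‖f x - f x'‖ ≤ C * ‖x - x'‖)
    (hd : HasFDerivAt f A x₀) (h : X) : ‖A h‖ ≤ C * ‖h‖ := by
  refine le_of_tendsto (line_deriv hd h).norm ?_
  filter_upwards [self_mem_nhdsWithin] with t ht
  have ht0 : t ≠ 0 := ht
  have key := hup (x₀ + t • h) x₀
  have e : x₀ + t • h - x₀ = t • h := by simp
  rw [e, norm_smul, Real.norm_eq_abs] at key
  have habs : 0 < |t| := abs_pos.mpr ht0
  rw [norm_smul, norm_inv, Real.norm_eq_abs, inv_mul_eq_div, div_le_iff₀ habs]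
  linarith

/-- The derivative at a point of Fréchet differentiability of a bijection that expands distances
by `c > 0` is onto. -/
lemma deriv_surj [CompleteSpace X] {f : X ≃ Y} {A : X →L[ℝ] Y} {x₀ : X} {c : ℝ} (hc : 0 < c)
    (hlow : ∀ x x' : X, c * ‖x - x'‖ ≤ ‖f x - f x'‖)
    (hd : HasFDerivAt f A x₀) : Function.Surjective A := by
  have hA : ∀ h, c * ‖h‖ ≤ ‖A h‖ := deriv_lower hlow hd
  have hanti : AntilipschitzWith (Real.toNNReal c⁻¹) A := by
    refine ContinuousLinearMap.antilipschitz_of_bound A fun x => ?_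
    rw [Real.coe_toNNReal _ (inv_nonneg.mpr hc.le), inv_mul_eq_div, le_div_iff₀ hc]
    linarith [hA x]
  have hclosed : IsClosed (range A) := hanti.isClosed_range A.uniformContinuous
  intro y
  have hy : y ∈ closure (range A) := by
    rw [Metric.mem_closure_iff]
    intro ε hε
    have hy1 : 0 < ‖y‖ + 1 := by positivity
    set η : ℝ := ε * c / (2 * (‖y‖ + 1)) with hη
    have hηpos : 0 < η := by positivity
    have hlo := hd.isLittleO
    have hev := hlo.def hηpos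
    obtain ⟨δ, hδ, hball⟩ := Metric.eventually_nhds_iff.mp hev
    set t : ℝ := δ * c / (2 * (‖y‖ + 1)) with ht
    have htpos : 0 < t := by positivity
    set x' : X := f.symm (f x₀ + t • y) with hx'
    have hfx' : f x' - f x₀ = t • y := by
      rw [hx', f.apply_symm_apply]; simp
    have hnorm : c * ‖x' - x₀‖ ≤ t * ‖y‖ := by
      have := hlow x' x₀
      rw [hfx', norm_smul, Real.norm_eq_abs, abs_of_pos htpos] at this
      exact this
    have hdist : ‖x' - x₀‖ ≤ t * ‖y‖ / c := by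
      rw [le_div_iff₀ hc]; linarith
    have hlt : t * ‖y‖ / c < δ := by
      rw [ht]
      have : δ * c / (2 * (‖y‖ + 1)) * ‖y‖ / c = δ * (‖y‖ / (2 * (‖y‖ + 1))) := by
        field_simp
      rw [this]
      have h2 : ‖y‖ / (2 * (‖y‖ + 1)) < 1 := by
        rw [div_lt_one (by positivity)]; linarith [norm_nonneg y]
      nlinarith
    have hb := hball (y := x') (by rw [dist_eq_norm]; linarith)
    rw [hfx'] at hb
    refine ⟨A (t⁻¹ • (x' - x₀)), mem_range_self _, ?_⟩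
    rw [dist_eq_norm, map_smul]
    have e2 : y - t⁻¹ • A (x' - x₀) = t⁻¹ • (t • y - A (x' - x₀)) := by
      rw [smul_sub, smul_smul, inv_mul_cancel₀ htpos.ne', one_smul]
    rw [e2, norm_smul, norm_inv, Real.norm_eq_abs, abs_of_pos htpos, inv_mul_eq_div,
      div_lt_iff₀ htpos]
    have h3 : η * ‖x' - x₀‖ ≤ η * (t * ‖y‖ / c) := by gcongr
    have h4 : η * (t * ‖y‖ / c) < ε * t := by
      rw [hη]
      have : ε * c / (2 * (‖y‖ + 1)) * (t * ‖y‖ / c) = ε * t * (‖y‖ / (2 * (‖y‖ + 1))) := by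
        field_simp
      rw [this]
      have h2 : ‖y‖ / (2 * (‖y‖ + 1)) < 1 := by
        rw [div_lt_one (by positivity)]; linarith [norm_nonneg y]
      have : 0 < ε * t := by positivity
      nlinarith
    linarith
  rwa [hclosed.closure_eq] at hy

theorem diff_point [CompleteSpace X] [CompleteSpace Y] (f : X ≃ Y) (c C : ℝ) (hc : 0 < c)
    (hf : ∀ x x' : X, c * ‖x - x'‖ ≤ ‖f x - f x'‖ ∧ ‖f x - f x'‖ ≤ C * ‖x - x'‖)
    (x₀ : X) (hdiff : DifferentiableAt ℝ f x₀) :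
    ∃ A : X ≃L[ℝ] Y, (A : X →L[ℝ] Y) = fderiv ℝ f x₀ ∧
      ∀ h : X, c * ‖h‖ ≤ ‖A h‖ ∧ ‖A h‖ ≤ C * ‖h‖ := by
  have hd := hdiff.hasFDerivAt
  have hlow := deriv_lower (fun x x' => (hf x x').1) hd
  have hup := deriv_upper (fun x x' => (hf x x').2) hd
  have hinj : (fderiv ℝ f x₀).ker = ⊥ := by
    rw [LinearMap.ker_eq_bot']
    intro h hh
    have h1 := hlow h
    have h2 : (fderiv ℝ f x₀) h = 0 := hh
    rw [h2, norm_zero] at h1
    have : ‖h‖ ≤ 0 := by nlinarith [norm_nonneg h]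
    exact norm_le_zero_iff.mp this
  have hsurj : (fderiv ℝ f x₀).range = ⊤ :=
    LinearMap.range_eq_top.mpr (deriv_surj hc (fun x x' => (hf x x').1) hd)
  refine ⟨ContinuousLinearEquiv.ofBijective (fderiv ℝ f x₀) hinj hsurj,
    ContinuousLinearEquiv.coe_ofBijective _ _ _, fun h => ?_⟩
  rw [ContinuousLinearEquiv.coeFn_ofBijective]
  exact ⟨hlow h, hup h⟩

end core

theorem finite_case {X : Type*} {Y : Type*} [NormedAddCommGroup X] [NormedSpace ℝ X]
    [FiniteDimensional ℝ X] [NormedAddCommGroup Y] [NormedSpace ℝ Y]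
    (f : X ≃ Y) (c C : ℝ) (hc : 0 < c)
    (hf : ∀ x x' : X, c * ‖x - x'‖ ≤ ‖f x - f x'‖ ∧ ‖f x - f x'‖ ≤ C * ‖x - x'‖) :
    ∃ A : X ≃L[ℝ] Y, ∀ h : X, c * ‖h‖ ≤ ‖A h‖ ∧ ‖A h‖ ≤ C * ‖h‖ := by
  have hLip : LipschitzWith (Real.toNNReal C) f := by
    refine LipschitzWith.of_dist_le_mul fun x x' => ?_
    rw [dist_eq_norm, dist_eq_norm]
    calc ‖f x - f x'‖ ≤ C * ‖x - x'‖ := (hf x x').2
      _ ≤ (Real.toNNReal C : ℝ) * ‖x - x'‖ := by
        gcongr; exact Real.le_coe_toNNReal C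
  have : ProperSpace X := FiniteDimensional.proper ℝ X
  have : CompleteSpace X := FiniteDimensional.complete ℝ X
  have hcomp : IsCompact (closedBall (f 0) 1) := by
    refine IsCompact.of_isClosed_subset
      ((isCompact_closedBall (0 : X) c⁻¹).image hLip.continuous) isClosed_closedBall ?_
    intro y hy
    refine ⟨f.symm y, ?_, f.apply_symm_apply y⟩
    rw [mem_closedBall, dist_eq_norm] at *
    have h1 := (hf (f.symm y) 0).1
    rw [f.apply_symm_apply] at h1
    rw [inv_eq_one_div, le_div_iff₀ hc]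
    linarith
  have : FiniteDimensional ℝ Y := FiniteDimensional.of_isCompact_closedBall ℝ zero_lt_one hcomp
  have : CompleteSpace Y := FiniteDimensional.complete ℝ Y
  borelize X
  obtain ⟨x₀, hx₀⟩ :=
    (hLip.ae_differentiableAt (μ := MeasureTheory.Measure.addHaar)).exists
  obtain ⟨A, -, hA⟩ := diff_point f c C hc hf x₀ hx₀
  exact ⟨A, hA⟩

/-- **Lipschitz isomorphisms with a point of differentiability.**

(1) Let `X`, `Y` be real Banach spaces and `f : X → Y` a Lipschitz isomorphism (a bijection with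
`c ‖x - x'‖ ≤ ‖f x - f x'‖ ≤ C ‖x - x'‖`, `c > 0`).  If `f` is Fréchet differentiable at a single
point `x₀`, then its derivative there is a surjective linear isomorphism `A : X ≃L[ℝ] Y`, with
`c ‖h‖ ≤ ‖A h‖ ≤ C ‖h‖`; in particular `X` and `Y` are linearly isomorphic.

(2) If `X` is finite-dimensional and `Y` is any real normed space, every Lipschitz isomorphism
`f : X → Y` yields a linear isomorphism `A : X ≃L[ℝ] Y` with the same constants. -/
theorem result.{u, v} :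
    (∀ (X : Type u) (Y : Type v) [NormedAddCommGroup X] [NormedSpace ℝ X] [CompleteSpace X]
        [NormedAddCommGroup Y] [NormedSpace ℝ Y] [CompleteSpace Y]
        (f : X ≃ Y) (c C : ℝ), 0 < c →
        (∀ x x' : X, c * ‖x - x'‖ ≤ ‖f x - f x'‖ ∧ ‖f x - f x'‖ ≤ C * ‖x - x'‖) →
        ∀ x₀ : X, DifferentiableAt ℝ f x₀ →
          ∃ A : X ≃L[ℝ] Y, (A : X →L[ℝ] Y) = fderiv ℝ f x₀ ∧
            ∀ h : X, c * ‖h‖ ≤ ‖A h‖ ∧ ‖A h‖ ≤ C * ‖h‖) ∧
    (∀ (X : Type u) (Y : Type v) [NormedAddCommGroup X] [NormedSpace ℝ X]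
        [FiniteDimensional ℝ X] [NormedAddCommGroup Y] [NormedSpace ℝ Y]
        (f : X ≃ Y) (c C : ℝ), 0 < c →
        (∀ x x' : X, c * ‖x - x'‖ ≤ ‖f x - f x'‖ ∧ ‖f x - f x'‖ ≤ C * ‖x - x'‖) →
        ∃ A : X ≃L[ℝ] Y, ∀ h : X, c * ‖h‖ ≤ ‖A h‖ ∧ ‖A h‖ ≤ C * ‖h‖) :=
  ⟨fun _ _ _ _ _ _ _ _ f c C hc hf x₀ hx₀ => diff_point f c C hc hf x₀ hx₀,
   fun _ _ _ _ _ _ _ f c C hc hf => finite_case f c C hc hf⟩

end Vale.Agent.Results.P124.A_DifferentiablePoint
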