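import Mathlib

namespace Vale.Agent.Results.P124.B_ApproximateLinearity

open Filter Topology Metric Set

section core

variable {X : Type*} {Y : Type*} [NormedAddCommGroup X] [NormedSpace ℝ X]
  [NormedAddCommGroup Y] [NormedSpace ℝ Y]

/-- A bounded-below operator on a Banach space that is onto up to a factor `θ < 1` is onto
(Riesz lemma). -/
lemma surj_of_approx [CompleteSpace X] (A : X →L[ℝ] Y) {m θ : ℝ} (hm : 0 < m) (hθ : θ < 1)
    (hlow : ∀ h, m * ‖h‖ ≤ ‖A h‖)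
    (happ : ∀ y : Y, ∀ η > 0, ∃ x : X, ‖y - A x‖ ≤ θ * ‖y‖ + η) :
    Function.Surjective A := by
  have hanti : AntilipschitzWith (Real.toNNReal m⁻¹) A := by
    refine ContinuousLinearMap.antilipschitz_of_bound A fun x => ?_
    rw [Real.coe_toNNReal _ (inv_nonneg.mpr hm.le), inv_mul_eq_div, le_div_iff₀ hm]
    linarith [hlow x]
  have hclosed : IsClosed (range A) := hanti.isClosed_range A.uniformContinuous
  by_contra hns
  have hne : ∃ y : Y, y ∉ LinearMap.range (A : X →ₗ[ℝ] Y) := by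
    by_contra hall
    push Not at hall
    exact hns fun y => LinearMap.mem_range.mp (hall y)
  have hcl : IsClosed ((LinearMap.range (A : X →ₗ[ℝ] Y) : Submodule ℝ Y) : Set Y) := by
    have : ((LinearMap.range (A : X →ₗ[ℝ] Y) : Submodule ℝ Y) : Set Y) = range A := by
      ext y; simp
    rw [this]; exact hclosed
  set r : ℝ := (θ + 1) / 2 with hr
  have hr1 : r < 1 := by rw [hr]; linarith
  have hrθ : 0 < r - θ := by rw [hr]; linarith
  obtain ⟨y₀, hy₀, hdist⟩ := riesz_lemma hcl hne hr1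
  have hy₀ne : y₀ ≠ 0 := by
    rintro rfl
    exact hy₀ (Submodule.zero_mem _)
  have hpos : 0 < ‖y₀‖ := norm_pos_iff.mpr hy₀ne
  obtain ⟨x, hx⟩ := happ y₀ ((r - θ) * ‖y₀‖ / 2) (by positivity)
  have h1 := hdist (A x) (LinearMap.mem_range_self _ x)
  nlinarith [mul_pos hrθ hpos]

lemma ker_bot_of_low (A : X →L[ℝ] Y) {m : ℝ} (hm : 0 < m) (hlow : ∀ h, m * ‖h‖ ≤ ‖A h‖) :
    A.ker = ⊥ := by
  rw [LinearMap.ker_eq_bot']
  intro h hh
  have h1 := hlow h
  have h2 : A h = 0 := hh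
  rw [h2, norm_zero] at h1
  have : ‖h‖ ≤ 0 := by nlinarith [norm_nonneg h]
  exact norm_le_zero_iff.mp this

/-- `ε`-Fréchet differentiability at one point with `ε < c`. -/
theorem near_point [CompleteSpace X] [CompleteSpace Y] (f : X ≃ Y) (c C ε : ℝ)
    (hε : 0 ≤ ε) (hεc : ε < c)
    (hf : ∀ x x' : X, c * ‖x - x'‖ ≤ ‖f x - f x'‖ ∧ ‖f x - f x'‖ ≤ C * ‖x - x'‖)
    (A : X →L[ℝ] Y) (x₀ : X) (δ : ℝ) (hδ : 0 < δ)
    (hA : ∀ h : X, ‖h‖ < δ → ‖f (x₀ + h) - f x₀ - A h‖ ≤ ε * ‖h‖) :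
    ∃ E : X ≃L[ℝ] Y, (E : X →L[ℝ] Y) = A ∧
      ∀ h : X, (c - ε) * ‖h‖ ≤ ‖A h‖ ∧ ‖A h‖ ≤ (C + ε) * ‖h‖ := by
  have hc : 0 < c := lt_of_le_of_lt hε hεc
  have hbd : ∀ h : X, (c - ε) * ‖h‖ ≤ ‖A h‖ ∧ ‖A h‖ ≤ (C + ε) * ‖h‖ := by
    intro h
    by_cases hh : h = 0
    · subst hh; simp
    have hn : 0 < ‖h‖ := norm_pos_iff.mpr hh
    set t : ℝ := δ / (2 * ‖h‖) with ht
    have htpos : 0 < t := by positivity
    have hnorm : ‖t • h‖ = t * ‖h‖ := by rw [norm_smul, Real.norm_eq_abs, abs_of_pos htpos]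
    have hsmall : ‖t • h‖ < δ := by
      rw [hnorm, ht]
      have : δ / (2 * ‖h‖) * ‖h‖ = δ / 2 := by field_simp
      rw [this]; linarith
    have h1 := hA (t • h) hsmall
    have h2 := hf (x₀ + t • h) x₀
    have e : x₀ + t • h - x₀ = t • h := by simp
    rw [e, hnorm] at h2
    rw [map_smul, hnorm] at h1
    have hAn : ‖t • A h‖ = t * ‖A h‖ := by rw [norm_smul, Real.norm_eq_abs, abs_of_pos htpos]
    have t1 : ‖f (x₀ + t • h) - f x₀‖ ≤ ‖t • A h‖ + ε * (t * ‖h‖) := by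
      calc ‖f (x₀ + t • h) - f x₀‖ = ‖(f (x₀ + t • h) - f x₀ - t • A h) + t • A h‖ := by
            congr 1; abel
        _ ≤ ‖f (x₀ + t • h) - f x₀ - t • A h‖ + ‖t • A h‖ := norm_add_le _ _
        _ ≤ ‖t • A h‖ + ε * (t * ‖h‖) := by linarith
    have t2 : ‖t • A h‖ ≤ ‖f (x₀ + t • h) - f x₀‖ + ε * (t * ‖h‖) := by
      calc ‖t • A h‖ = ‖(f (x₀ + t • h) - f x₀) - (f (x₀ + t • h) - f x₀ - t • A h)‖ := by
            congr 1; abel
        _ ≤ ‖f (x₀ + t • h) - f x₀‖ + ‖f (x₀ + t • h) - f x₀ - t • A h‖ := norm_sub_le _ _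
        _ ≤ ‖f (x₀ + t • h) - f x₀‖ + ε * (t * ‖h‖) := by linarith
    rw [hAn] at t1 t2
    constructor
    · have : t * ((c - ε) * ‖h‖) ≤ t * ‖A h‖ := by nlinarith [h2.1]
      exact le_of_mul_le_mul_left this htpos
    · have : t * ‖A h‖ ≤ t * ((C + ε) * ‖h‖) := by nlinarith [h2.2]
      exact le_of_mul_le_mul_left this htpos
  have hm : 0 < c - ε := by linarith
  have hsurj : Function.Surjective A := by
    refine surj_of_approx A hm (θ := ε / c) ((div_lt_one hc).mpr hεc) (fun h => (hbd h).1) ?_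
    intro y η hη
    by_cases hy : y = 0
    · subst hy
      exact ⟨0, by simp; positivity⟩
    have hyn : 0 < ‖y‖ := norm_pos_iff.mpr hy
    set t : ℝ := δ * c / (2 * ‖y‖) with ht
    have htpos : 0 < t := by positivity
    set x' : X := f.symm (f x₀ + t • y) with hx'
    have hfx' : f x' - f x₀ = t • y := by rw [hx', f.apply_symm_apply]; simp
    have hnorm : c * ‖x' - x₀‖ ≤ t * ‖y‖ := by
      have := (hf x' x₀).1
      rw [hfx', norm_smul, Real.norm_eq_abs, abs_of_pos htpos] at this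
      exact this
    have hdist : ‖x' - x₀‖ ≤ t * ‖y‖ / c := by rw [le_div_iff₀ hc]; linarith
    have hlt : t * ‖y‖ / c < δ := by
      rw [ht]
      have : δ * c / (2 * ‖y‖) * ‖y‖ / c = δ / 2 := by field_simp
      rw [this]; linarith
    have hb := hA (x' - x₀) (lt_of_le_of_lt hdist hlt)
    have e1 : x₀ + (x' - x₀) = x' := by abel
    rw [e1, hfx'] at hb
    refine ⟨t⁻¹ • (x' - x₀), ?_⟩
    rw [map_smul]
    have e2 : y - t⁻¹ • A (x' - x₀) = t⁻¹ • (t • y - A (x' - x₀)) := by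
      rw [smul_sub, smul_smul, inv_mul_cancel₀ htpos.ne', one_smul]
    rw [e2, norm_smul, norm_inv, Real.norm_eq_abs, abs_of_pos htpos]
    have h3 : ‖t • y - A (x' - x₀)‖ ≤ ε * (t * ‖y‖ / c) := le_trans hb (by gcongr)
    have h4 : t⁻¹ * ‖t • y - A (x' - x₀)‖ ≤ t⁻¹ * (ε * (t * ‖y‖ / c)) := by gcongr
    have h5 : t⁻¹ * (ε * (t * ‖y‖ / c)) = ε / c * ‖y‖ := by field_simp
    linarith
  exact ⟨ContinuousLinearEquiv.ofBijective A (ker_bot_of_low A hm fun h => (hbd h).1)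
    (LinearMap.range_eq_top.mpr hsurj), ContinuousLinearEquiv.coe_ofBijective _ _ _, hbd⟩

/-- `ε`-linearity near infinity with `ε < c`. -/
theorem near_infinity [CompleteSpace X] [CompleteSpace Y] (f : X ≃ Y) (c C ε : ℝ)
    (hε : 0 ≤ ε) (hεc : ε < c)
    (hf : ∀ x x' : X, c * ‖x - x'‖ ≤ ‖f x - f x'‖ ∧ ‖f x - f x'‖ ≤ C * ‖x - x'‖)
    (A : X →L[ℝ] Y) (R : ℝ)
    (hA : ∀ h : X, R < ‖h‖ → ‖f h - A h‖ ≤ ε * ‖h‖) :
    ∃ E : X ≃L[ℝ] Y, (E : X →L[ℝ] Y) = A ∧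
      ∀ h : X, (c - ε) * ‖h‖ ≤ ‖A h‖ ∧ ‖A h‖ ≤ (C + ε) * ‖h‖ := by
  have hc : 0 < c := lt_of_le_of_lt hε hεc
  have hf0 : 0 ≤ ‖f 0‖ := norm_nonneg _
  -- the basic estimates at a far point `t • h`
  have hfar : ∀ (h : X) (t : ℝ), 0 < t → R < t * ‖h‖ →
      c * (t * ‖h‖) ≤ ε * (t * ‖h‖) + t * ‖A h‖ + ‖f 0‖ ∧
      t * ‖A h‖ ≤ ε * (t * ‖h‖) + C * (t * ‖h‖) + ‖f 0‖ := by
    intro h t htpos hR
    have hnorm : ‖t • h‖ = t * ‖h‖ := by rw [norm_smul, Real.norm_eq_abs, abs_of_pos htpos]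
    have hAn : ‖A (t • h)‖ = t * ‖A h‖ := by
      rw [map_smul, norm_smul, Real.norm_eq_abs, abs_of_pos htpos]
    have h1 := hA (t • h) (by rw [hnorm]; exact hR)
    have h2 := hf (t • h) 0
    rw [sub_zero, hnorm] at h2
    rw [hnorm] at h1
    constructor
    · have : ‖f (t • h) - f 0‖ ≤ ‖f (t • h) - A (t • h)‖ + ‖A (t • h)‖ + ‖f 0‖ := by
        calc ‖f (t • h) - f 0‖ = ‖(f (t • h) - A (t • h)) + A (t • h) - f 0‖ := by
              congr 1; abel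
          _ ≤ ‖(f (t • h) - A (t • h)) + A (t • h)‖ + ‖f 0‖ := norm_sub_le _ _
          _ ≤ ‖f (t • h) - A (t • h)‖ + ‖A (t • h)‖ + ‖f 0‖ := by
              gcongr; exact norm_add_le _ _
      rw [hAn] at this
      linarith [h2.1]
    · have : ‖A (t • h)‖ ≤ ‖f (t • h) - A (t • h)‖ + ‖f (t • h) - f 0‖ + ‖f 0‖ := by
        calc ‖A (t • h)‖ = ‖(f (t • h) - f 0) + f 0 - (f (t • h) - A (t • h))‖ := by
              congr 1; abel
          _ ≤ ‖(f (t • h) - f 0) + f 0‖ + ‖f (t • h) - A (t • h)‖ := norm_sub_le _ _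
          _ ≤ ‖f (t • h) - f 0‖ + ‖f 0‖ + ‖f (t • h) - A (t • h)‖ := by
              gcongr; exact norm_add_le _ _
          _ = ‖f (t • h) - A (t • h)‖ + ‖f (t • h) - f 0‖ + ‖f 0‖ := by ring
      rw [hAn] at this
      linarith [h2.2]
  have hbd : ∀ h : X, (c - ε) * ‖h‖ ≤ ‖A h‖ ∧ ‖A h‖ ≤ (C + ε) * ‖h‖ := by
    intro h
    by_cases hh : h = 0
    · subst hh; simp
    have hn : 0 < ‖h‖ := norm_pos_iff.mpr hh
    constructor
    · by_contra hcon
      push Not at hcon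
      set g : ℝ := (c - ε) * ‖h‖ - ‖A h‖ with hg
      have hgpos : 0 < g := by rw [hg]; linarith
      set t : ℝ := (|R| + 1) / ‖h‖ + (‖f 0‖ + 1) / g with ht
      have htpos : 0 < t := by positivity
      have ht1 : t * ‖h‖ ≥ |R| + 1 := by
        have : t * ‖h‖ = (|R| + 1) + (‖f 0‖ + 1) / g * ‖h‖ := by rw [ht]; field_simp
        rw [this]
        have : 0 ≤ (‖f 0‖ + 1) / g * ‖h‖ := by positivity
        linarith
      have ht2 : t * g ≥ ‖f 0‖ + 1 := by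
        have : t * g = (|R| + 1) / ‖h‖ * g + (‖f 0‖ + 1) := by rw [ht]; field_simp
        rw [this]
        have : 0 ≤ (|R| + 1) / ‖h‖ * g := by positivity
        linarith
      have h3 := (hfar h t htpos (by linarith [le_abs_self R])).1
      have : t * g = c * (t * ‖h‖) - ε * (t * ‖h‖) - t * ‖A h‖ := by rw [hg]; ring
      linarith
    · by_contra hcon
      push Not at hcon
      set g : ℝ := ‖A h‖ - (C + ε) * ‖h‖ with hg
      have hgpos : 0 < g := by rw [hg]; linarith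
      set t : ℝ := (|R| + 1) / ‖h‖ + (‖f 0‖ + 1) / g with ht
      have htpos : 0 < t := by positivity
      have ht1 : t * ‖h‖ ≥ |R| + 1 := by
        have : t * ‖h‖ = (|R| + 1) + (‖f 0‖ + 1) / g * ‖h‖ := by rw [ht]; field_simp
        rw [this]
        have : 0 ≤ (‖f 0‖ + 1) / g * ‖h‖ := by positivity
        linarith
      have ht2 : t * g ≥ ‖f 0‖ + 1 := by
        have : t * g = (|R| + 1) / ‖h‖ * g + (‖f 0‖ + 1) := by rw [ht]; field_simp
        rw [this]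
        have : 0 ≤ (|R| + 1) / ‖h‖ * g := by positivity
        linarith
      have h3 := (hfar h t htpos (by linarith [le_abs_self R])).2
      have : t * g = t * ‖A h‖ - C * (t * ‖h‖) - ε * (t * ‖h‖) := by rw [hg]; ring
      linarith
  have hm : 0 < c - ε := by linarith
  have hsurj : Function.Surjective A := by
    refine surj_of_approx A hm (θ := ε / c) ((div_lt_one hc).mpr hεc) (fun h => (hbd h).1) ?_
    intro y η hη
    by_cases hy : y = 0
    · subst hy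
      exact ⟨0, by simp; positivity⟩
    have hyn : 0 < ‖y‖ := norm_pos_iff.mpr hy
    set K : ℝ := |C| + 1 with hK
    have hKpos : 0 < K := by positivity
    set t : ℝ := (K * (|R| + 1) + ‖f 0‖ + 1) / ‖y‖ + ε * ‖f 0‖ / (c * η) + 1 with ht
    have htpos : 0 < t := by positivity
    have ht1 : t * ‖y‖ ≥ K * (|R| + 1) + ‖f 0‖ + 1 := by
      have : t * ‖y‖ = (K * (|R| + 1) + ‖f 0‖ + 1) + (ε * ‖f 0‖ / (c * η) + 1) * ‖y‖ := by
        rw [ht]; field_simp; ring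
      rw [this]
      have : 0 ≤ (ε * ‖f 0‖ / (c * η) + 1) * ‖y‖ := by positivity
      linarith
    have ht2 : ε * ‖f 0‖ / (c * η) ≤ t := by
      rw [ht]
      have : 0 ≤ (K * (|R| + 1) + ‖f 0‖ + 1) / ‖y‖ := by positivity
      linarith
    set x' : X := f.symm (t • y) with hx'
    have hfx' : f x' = t • y := by rw [hx', f.apply_symm_apply]
    have hty : ‖t • y‖ = t * ‖y‖ := by rw [norm_smul, Real.norm_eq_abs, abs_of_pos htpos]
    have h2 := hf x' 0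
    rw [sub_zero, hfx'] at h2
    have hlow1 : t * ‖y‖ - ‖f 0‖ ≤ ‖t • y - f 0‖ := by
      have := norm_sub_norm_le (t • y) (f 0)
      rw [hty] at this; exact this
    have hup1 : ‖t • y - f 0‖ ≤ t * ‖y‖ + ‖f 0‖ := by
      have := norm_sub_le (t • y) (f 0)
      rw [hty] at this; exact this
    have hxbig : R < ‖x'‖ := by
      have hCK : C * ‖x'‖ ≤ K * ‖x'‖ := by
        have : C ≤ K := by rw [hK]; linarith [le_abs_self C]
        exact mul_le_mul_of_nonneg_right this (norm_nonneg _)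
      have : K * (|R| + 1) + 1 ≤ K * ‖x'‖ := by linarith [h2.2]
      have : |R| + 1 < ‖x'‖ := by
        by_contra hcon
        push Not at hcon
        have := mul_le_mul_of_nonneg_left hcon hKpos.le
        linarith
      linarith [le_abs_self R]
    have hxle : ‖x'‖ ≤ (t * ‖y‖ + ‖f 0‖) / c := by
      rw [le_div_iff₀ hc]; linarith [h2.1]
    have hb := hA x' hxbig
    rw [hfx'] at hb
    refine ⟨t⁻¹ • x', ?_⟩
    rw [map_smul]
    have e2 : y - t⁻¹ • A x' = t⁻¹ • (t • y - A x') := by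
      rw [smul_sub, smul_smul, inv_mul_cancel₀ htpos.ne', one_smul]
    rw [e2, norm_smul, norm_inv, Real.norm_eq_abs, abs_of_pos htpos]
    have h3 : ‖t • y - A x'‖ ≤ ε * ((t * ‖y‖ + ‖f 0‖) / c) := le_trans hb (by gcongr)
    have h4 : t⁻¹ * ‖t • y - A x'‖ ≤ t⁻¹ * (ε * ((t * ‖y‖ + ‖f 0‖) / c)) := by gcongr
    have h5 : t⁻¹ * (ε * ((t * ‖y‖ + ‖f 0‖) / c)) = ε / c * ‖y‖ + ε * ‖f 0‖ / (c * t) := by
      field_simp
    have h6 : ε * ‖f 0‖ / (c * t) ≤ η := by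
      rw [div_le_iff₀ (by positivity)]
      have h7 : ε * ‖f 0‖ ≤ c * η * t := by
        have := mul_le_mul_of_nonneg_left ht2 (by positivity : (0:ℝ) ≤ c * η)
        have e : c * η * (ε * ‖f 0‖ / (c * η)) = ε * ‖f 0‖ := by field_simp
        linarith
      linarith
    linarith
  exact ⟨ContinuousLinearEquiv.ofBijective A (ker_bot_of_low A hm fun h => (hbd h).1)
    (LinearMap.range_eq_top.mpr hsurj), ContinuousLinearEquiv.coe_ofBijective _ _ _, hbd⟩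

/-- Gâteaux differentiability of `f` at `x₀` and of `f⁻¹` at `f x₀`. -/
theorem gateaux_pair (f : X ≃ Y) (c C : ℝ) (hc : 0 < c)
    (hf : ∀ x x' : X, c * ‖x - x'‖ ≤ ‖f x - f x'‖ ∧ ‖f x - f x'‖ ≤ C * ‖x - x'‖)
    (A : X →L[ℝ] Y) (B : Y →L[ℝ] X) (x₀ : X)
    (hA : ∀ h : X, HasLineDerivAt ℝ f (A h) x₀ h)
    (hB : ∀ k : Y, HasLineDerivAt ℝ f.symm (B k) (f x₀) k) :
    ∃ E : X ≃L[ℝ] Y, (E : X →L[ℝ] Y) = A ∧ (E.symm : Y →L[ℝ] X) = B := by
  have limA : ∀ h : X, Tendsto (fun t : ℝ => t⁻¹ • (f (x₀ + t • h) - f x₀)) (𝓝[≠] 0)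
      (𝓝 (A h)) := by
    intro h
    have := (hA h).tendsto_slope_zero
    simpa using this
  have limB : ∀ k : Y, Tendsto (fun t : ℝ => t⁻¹ • (f.symm (f x₀ + t • k) - x₀)) (𝓝[≠] 0)
      (𝓝 (B k)) := by
    intro k
    have := (hB k).tendsto_slope_zero
    simpa using this
  have h1 : ∀ h : X, B (A h) = h := by
    intro h
    have hlim : Tendsto (fun t : ℝ => t⁻¹ • (f.symm (f x₀ + t • A h) - x₀)) (𝓝[≠] 0) (𝓝 h) := by
      rw [tendsto_iff_norm_sub_tendsto_zero]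
      have hz : Tendsto (fun t : ℝ => c⁻¹ * ‖t⁻¹ • (f (x₀ + t • h) - f x₀) - A h‖) (𝓝[≠] 0)
          (𝓝 0) := by
        have := ((tendsto_iff_norm_sub_tendsto_zero.mp (limA h)).const_mul c⁻¹)
        simpa using this
      refine squeeze_zero' (Eventually.of_forall fun t => norm_nonneg _) ?_ hz
      filter_upwards [self_mem_nhdsWithin] with t ht
      have ht0 : t ≠ 0 := ht
      have habs : 0 < |t| := abs_pos.mpr ht0
      have e1 : t⁻¹ • (f.symm (f x₀ + t • A h) - x₀) - h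
          = t⁻¹ • (f.symm (f x₀ + t • A h) - (x₀ + t • h)) := by
        rw [smul_sub, smul_sub, smul_add, smul_smul, inv_mul_cancel₀ ht0, one_smul]; abel
      have e2 : t⁻¹ • (f (x₀ + t • h) - f x₀) - A h
          = t⁻¹ • (f (x₀ + t • h) - (f x₀ + t • A h)) := by
        rw [smul_sub, smul_sub, smul_add, smul_smul, inv_mul_cancel₀ ht0, one_smul]; abel
      rw [e1, e2, norm_smul, norm_smul, norm_inv, Real.norm_eq_abs]
      have key := (hf (f.symm (f x₀ + t • A h)) (x₀ + t • h)).1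
      rw [f.apply_symm_apply] at key
      have key2 : ‖f.symm (f x₀ + t • A h) - (x₀ + t • h)‖
          ≤ c⁻¹ * ‖f (x₀ + t • h) - (f x₀ + t • A h)‖ := by
        rw [inv_mul_eq_div, le_div_iff₀ hc, norm_sub_rev (f (x₀ + t • h))]
        linarith
      calc |t|⁻¹ * ‖f.symm (f x₀ + t • A h) - (x₀ + t • h)‖
          ≤ |t|⁻¹ * (c⁻¹ * ‖f (x₀ + t • h) - (f x₀ + t • A h)‖) := by gcongr
        _ = c⁻¹ * (|t|⁻¹ * ‖f (x₀ + t • h) - (f x₀ + t • A h)‖) := by ring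
    exact tendsto_nhds_unique (limB (A h)) hlim
  have h2 : ∀ k : Y, A (B k) = k := by
    intro k
    have hlim : Tendsto (fun t : ℝ => t⁻¹ • (f (x₀ + t • B k) - f x₀)) (𝓝[≠] 0) (𝓝 k) := by
      rw [tendsto_iff_norm_sub_tendsto_zero]
      have hz : Tendsto (fun t : ℝ => |C| * ‖t⁻¹ • (f.symm (f x₀ + t • k) - x₀) - B k‖) (𝓝[≠] 0)
          (𝓝 0) := by
        have := ((tendsto_iff_norm_sub_tendsto_zero.mp (limB k)).const_mul |C|)
        simpa using this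
      refine squeeze_zero' (Eventually.of_forall fun t => norm_nonneg _) ?_ hz
      filter_upwards [self_mem_nhdsWithin] with t ht
      have ht0 : t ≠ 0 := ht
      have e1 : t⁻¹ • (f (x₀ + t • B k) - f x₀) - k
          = t⁻¹ • (f (x₀ + t • B k) - (f x₀ + t • k)) := by
        rw [smul_sub, smul_sub, smul_add, smul_smul, inv_mul_cancel₀ ht0, one_smul]; abel
      have e2 : t⁻¹ • (f.symm (f x₀ + t • k) - x₀) - B k
          = t⁻¹ • (f.symm (f x₀ + t • k) - (x₀ + t • B k)) := by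
        rw [smul_sub, smul_sub, smul_add, smul_smul, inv_mul_cancel₀ ht0, one_smul]; abel
      rw [e1, e2, norm_smul, norm_smul, norm_inv, Real.norm_eq_abs]
      have key := (hf (x₀ + t • B k) (f.symm (f x₀ + t • k))).2
      rw [f.apply_symm_apply] at key
      have key2 : ‖f (x₀ + t • B k) - (f x₀ + t • k)‖
          ≤ |C| * ‖f.symm (f x₀ + t • k) - (x₀ + t • B k)‖ := by
        rw [norm_sub_rev (f.symm (f x₀ + t • k))]
        calc ‖f (x₀ + t • B k) - (f x₀ + t • k)‖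
            ≤ C * ‖x₀ + t • B k - f.symm (f x₀ + t • k)‖ := key
          _ ≤ |C| * ‖x₀ + t • B k - f.symm (f x₀ + t • k)‖ :=
            mul_le_mul_of_nonneg_right (le_abs_self C) (norm_nonneg _)
      calc |t|⁻¹ * ‖f (x₀ + t • B k) - (f x₀ + t • k)‖
          ≤ |t|⁻¹ * (|C| * ‖f.symm (f x₀ + t • k) - (x₀ + t • B k)‖) := by gcongr
        _ = |C| * (|t|⁻¹ * ‖f.symm (f x₀ + t • k) - (x₀ + t • B k)‖) := by ring
    exact tendsto_nhds_unique (limA (B k)) hlim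
  refine ⟨ContinuousLinearEquiv.equivOfInverse A B h1 h2, ?_, ?_⟩
  · ext x; rfl
  · ext y; rfl

end core

/-- **Lipschitz isomorphisms that are approximately linear at one point or at infinity.**

Throughout, `f : X ≃ Y` is a Lipschitz isomorphism of real normed spaces:
`c ‖x - x'‖ ≤ ‖f x - f x'‖ ≤ C ‖x - x'‖` with `c > 0`, and `A : X →L[ℝ] Y` is a bounded linear
operator.

(1) (`ε`-Fréchet point.) `X`, `Y` Banach, `0 ≤ ε < c`.  If `‖f (x₀ + h) - f x₀ - A h‖ ≤ ε ‖h‖` for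
all `‖h‖ < δ` (some `δ > 0`), then `A` is a linear isomorphism of `X` onto `Y` and
`(c - ε) ‖h‖ ≤ ‖A h‖ ≤ (C + ε) ‖h‖`.

(2) (`ε`-linear at infinity.) `X`, `Y` Banach, `0 ≤ ε < c`.  If `‖f h - A h‖ ≤ ε ‖h‖` for all
`‖h‖ > R`, then the same conclusion holds.

(3) (Gâteaux pair.) `X`, `Y` real normed spaces.  If `f` has Gâteaux derivative `A` at `x₀` and
`f⁻¹` has Gâteaux derivative `B` at `f x₀` (`B` bounded linear), then `A` is a linear
isomorphism of `X` onto `Y` with inverse `B`. -/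
theorem result.{u, v} :
    (∀ (X : Type u) (Y : Type v) [NormedAddCommGroup X] [NormedSpace ℝ X] [CompleteSpace X]
        [NormedAddCommGroup Y] [NormedSpace ℝ Y] [CompleteSpace Y]
        (f : X ≃ Y) (c C ε : ℝ), 0 ≤ ε → ε < c →
        (∀ x x' : X, c * ‖x - x'‖ ≤ ‖f x - f x'‖ ∧ ‖f x - f x'‖ ≤ C * ‖x - x'‖) →
        ∀ (A : X →L[ℝ] Y) (x₀ : X) (δ : ℝ), 0 < δ →
          (∀ h : X, ‖h‖ < δ → ‖f (x₀ + h) - f x₀ - A h‖ ≤ ε * ‖h‖) →
          ∃ E : X ≃L[ℝ] Y, (E : X →L[ℝ] Y) = A ∧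
            ∀ h : X, (c - ε) * ‖h‖ ≤ ‖A h‖ ∧ ‖A h‖ ≤ (C + ε) * ‖h‖) ∧
    (∀ (X : Type u) (Y : Type v) [NormedAddCommGroup X] [NormedSpace ℝ X] [CompleteSpace X]
        [NormedAddCommGroup Y] [NormedSpace ℝ Y] [CompleteSpace Y]
        (f : X ≃ Y) (c C ε : ℝ), 0 ≤ ε → ε < c →
        (∀ x x' : X, c * ‖x - x'‖ ≤ ‖f x - f x'‖ ∧ ‖f x - f x'‖ ≤ C * ‖x - x'‖) →
        ∀ (A : X →L[ℝ] Y) (R : ℝ),
          (∀ h : X, R < ‖h‖ → ‖f h - A h‖ ≤ ε * ‖h‖) →
          ∃ E : X ≃L[ℝ] Y, (E : X →L[ℝ] Y) = A ∧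
            ∀ h : X, (c - ε) * ‖h‖ ≤ ‖A h‖ ∧ ‖A h‖ ≤ (C + ε) * ‖h‖) ∧
    (∀ (X : Type u) (Y : Type v) [NormedAddCommGroup X] [NormedSpace ℝ X]
        [NormedAddCommGroup Y] [NormedSpace ℝ Y]
        (f : X ≃ Y) (c C : ℝ), 0 < c →
        (∀ x x' : X, c * ‖x - x'‖ ≤ ‖f x - f x'‖ ∧ ‖f x - f x'‖ ≤ C * ‖x - x'‖) →
        ∀ (A : X →L[ℝ] Y) (B : Y →L[ℝ] X) (x₀ : X),
          (∀ h : X, HasLineDerivAt ℝ f (A h) x₀ h) →
          (∀ k : Y, HasLineDerivAt ℝ f.symm (B k) (f x₀) k) →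
          ∃ E : X ≃L[ℝ] Y, (E : X →L[ℝ] Y) = A ∧ (E.symm : Y →L[ℝ] X) = B) :=
  ⟨fun _ _ _ _ _ _ _ _ f c C ε hε hεc hf A x₀ δ hδ hA => near_point f c C ε hε hεc hf A x₀ δ hδ hA,
   fun _ _ _ _ _ _ _ _ f c C ε hε hεc hf A R hA => near_infinity f c C ε hε hεc hf A R hA,
   fun _ _ _ _ _ _ f c C hc hf A B x₀ hA hB => gateaux_pair f c C hc hf A B x₀ hA hB⟩

end Vale.Agent.Results.P124.B_ApproximateLinearity
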